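import Vale.Agent.P171.Final

namespace Vale.Agent.Results.P171.PhaseTransition

open Vale.Agent.P171

/-- There is a measurable, locally bounded, stable and tempered radial pair potential on `ℝ³`
whose pressure `Π(1,z)` exists (as a limit over all cubes `[0,L]³`, `L → ∞`) for every `z > 0`
and is not differentiable at some `z > 0`. -/
theorem result : ∃ φ : ℝ → ℝ, Measurable φ ∧ LocBounded φ ∧ Stable φ ∧ Tempered φ ∧
    ∃ p : ℝ → ℝ, (∀ z : ℝ, 0 < z → HasPressure φ 1 z (p z)) ∧
      ∃ z : ℝ, 0 < z ∧ ¬ DifferentiableAt ℝ p z :=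
  exists_transition

end Vale.Agent.Results.P171.PhaseTransition
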